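import Mathlib

/-!
# Commutator calculus in groups of nilpotency class at most three

Hypothesis `h3 : ∀ a b c d : G, ⁅⁅⁅a, b⁆, c⁆, d⁆ = 1` (with `⁅a, b⁆ = a * b * a⁻¹ * b⁻¹`).
Then `⁅n, c⁆` is central for `n` in the commutator subgroup (closure induction), the commutator
subgroup is commutative (three subgroups lemma
`Subgroup.commutator_commutator_eq_bot_of_rotate`), and `⁅x, n⁆` is multiplicative in `x : G` and
in `n ∈ commutator G`.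
-/

namespace Vale.Agent.P329

open scoped commutatorElement

variable {G : Type} [Group G]

theorem n3_conj_center {z : G} (hz : z ∈ Subgroup.center G) (x : G) : x * z * x⁻¹ = z := by
  rw [Subgroup.mem_center_iff] at hz
  rw [hz x, mul_assoc, mul_inv_cancel, mul_one]

theorem n3_comm_center (h3 : ∀ a b c d : G, ⁅⁅⁅a, b⁆, c⁆, d⁆ = 1) {n : G} (hn : n ∈ commutator G)
    (c : G) : ⁅n, c⁆ ∈ Subgroup.center G := by
  rw [commutator_eq_closure] at hn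
  induction hn using Subgroup.closure_induction with
  | mem x hx =>
    obtain ⟨a, b, rfl⟩ := hx
    rw [Subgroup.mem_center_iff]
    intro d
    have := h3 a b c d
    rw [commutatorElement_eq_one_iff_mul_comm] at this
    exact this.symm
  | one => simp
  | mul x y _ _ hx hy =>
    have e : ⁅x * y, c⁆ = x * ⁅y, c⁆ * x⁻¹ * ⁅x, c⁆ := by
      simp [commutatorElement_def, mul_assoc]
    rw [e, n3_conj_center hy]
    exact mul_mem hy hx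
  | inv x _ hx =>
    have e : ⁅x⁻¹, c⁆ = x⁻¹ * ⁅x, c⁆⁻¹ * x⁻¹⁻¹ := by
      simp [commutatorElement_def, mul_assoc]
    rw [e, n3_conj_center (inv_mem hx)]
    exact inv_mem hx

theorem n3_comm_center' (h3 : ∀ a b c d : G, ⁅⁅⁅a, b⁆, c⁆, d⁆ = 1) {n : G} (hn : n ∈ commutator G)
    (c : G) : ⁅c, n⁆ ∈ Subgroup.center G := by
  rw [← commutatorElement_inv]
  exact inv_mem (n3_comm_center h3 hn c)

theorem n3_comm_of_center (x : G) {z : G} (hz : z ∈ Subgroup.center G) : ⁅x, z⁆ = 1 := by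
  rw [commutatorElement_eq_one_iff_mul_comm]
  rw [Subgroup.mem_center_iff] at hz
  exact hz x

theorem n3_commutator_comm (h3 : ∀ a b c d : G, ⁅⁅⁅a, b⁆, c⁆, d⁆ = 1) {n n' : G}
    (hn : n ∈ commutator G) (hn' : n' ∈ commutator G) : n * n' = n' * n := by
  have h1 : ⁅⁅(⊤ : Subgroup G), commutator G⁆, (⊤ : Subgroup G)⁆ = ⊥ := by
    rw [eq_bot_iff, Subgroup.commutator_le]
    intro k hk d _
    have hk' : k ∈ Subgroup.center G := by
      have : ⁅(⊤ : Subgroup G), commutator G⁆ ≤ Subgroup.center G := by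
        rw [Subgroup.commutator_le]
        intro c _ m hm
        exact n3_comm_center' h3 hm c
      exact this hk
    rw [Subgroup.mem_bot, ← commutatorElement_inv, n3_comm_of_center d hk', inv_one]
  have h2 : ⁅⁅commutator G, (⊤ : Subgroup G)⁆, (⊤ : Subgroup G)⁆ = ⊥ := by
    rw [eq_bot_iff, Subgroup.commutator_le]
    intro k hk d _
    have hk' : k ∈ Subgroup.center G := by
      have : ⁅commutator G, (⊤ : Subgroup G)⁆ ≤ Subgroup.center G := by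
        rw [Subgroup.commutator_le]
        intro m hm c _
        exact n3_comm_center h3 hm c
      exact this hk
    rw [Subgroup.mem_bot, ← commutatorElement_inv, n3_comm_of_center d hk', inv_one]
  have h := Subgroup.commutator_commutator_eq_bot_of_rotate h1 h2
  have hmem : ⁅n, n'⁆ ∈ ⁅⁅(⊤ : Subgroup G), (⊤ : Subgroup G)⁆, commutator G⁆ :=
    Subgroup.commutator_mem_commutator hn hn'
  rw [h, Subgroup.mem_bot, commutatorElement_eq_one_iff_mul_comm] at hmem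
  exact hmem

theorem n3_comm_mul_left (h3 : ∀ a b c d : G, ⁅⁅⁅a, b⁆, c⁆, d⁆ = 1) (x y : G) {n : G}
    (hn : n ∈ commutator G) : ⁅x * y, n⁆ = ⁅x, n⁆ * ⁅y, n⁆ := by
  have e : ⁅x * y, n⁆ = x * ⁅y, n⁆ * x⁻¹ * ⁅x, n⁆ := by
    simp [commutatorElement_def, mul_assoc]
  have hy := n3_comm_center' h3 hn y
  rw [e, n3_conj_center hy]
  rw [Subgroup.mem_center_iff] at hy
  exact (hy _).symm

theorem n3_comm_mul_right (h3 : ∀ a b c d : G, ⁅⁅⁅a, b⁆, c⁆, d⁆ = 1) (x : G) {n n' : G}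
    (hn : n ∈ commutator G) (hn' : n' ∈ commutator G) : ⁅x, n * n'⁆ = ⁅x, n⁆ * ⁅x, n'⁆ := by
  have e : ⁅x, n * n'⁆ = ⁅x, n⁆ * (n * ⁅x, n'⁆ * n⁻¹) := by
    simp [commutatorElement_def, mul_assoc]
  rw [e, n3_conj_center (n3_comm_center' h3 hn' x)]

theorem n3_comm_pow_right (h3 : ∀ a b c d : G, ⁅⁅⁅a, b⁆, c⁆, d⁆ = 1) (x : G) {n : G}
    (hn : n ∈ commutator G) (k : ℕ) : ⁅x, n ^ k⁆ = ⁅x, n⁆ ^ k := by
  induction k with
  | zero => simp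
  | succ k ih =>
    rw [pow_succ, n3_comm_mul_right h3 x (pow_mem hn k) hn, ih, pow_succ]

/-- `⁅t ^ X, g⁆ = ⁅t, g⁆ ^ X * ⁅t, ⁅t, g⁆⁆ ^ (X choose 2)`. -/
theorem n3_comm_pow_left (h3 : ∀ a b c d : G, ⁅⁅⁅a, b⁆, c⁆, d⁆ = 1) (t g : G) (X : ℕ) :
    ⁅t ^ X, g⁆ = ⁅t, g⁆ ^ X * ⁅t, ⁅t, g⁆⁆ ^ (X.choose 2) := by
  have hc : ⁅t, g⁆ ∈ commutator G := Subgroup.commutator_mem_commutator trivial trivial
  have hz : ⁅t, ⁅t, g⁆⁆ ∈ Subgroup.center G := n3_comm_center' h3 hc t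
  have hzc : ∀ y : G, y * ⁅t, ⁅t, g⁆⁆ = ⁅t, ⁅t, g⁆⁆ * y := Subgroup.mem_center_iff.mp hz
  induction X with
  | zero => simp
  | succ X ih =>
    have e : ⁅t ^ (X + 1), g⁆ = t * ⁅t ^ X, g⁆ * t⁻¹ * ⁅t, g⁆ := by
      rw [pow_succ']
      simp [commutatorElement_def, mul_assoc]
    have e1 : t * ⁅t, g⁆ * t⁻¹ = ⁅t, ⁅t, g⁆⁆ * ⁅t, g⁆ := by
      generalize ⁅t, g⁆ = c
      simp [commutatorElement_def]
    have e2 : t * (⁅t, g⁆ ^ X * ⁅t, ⁅t, g⁆⁆ ^ (X.choose 2)) * t⁻¹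
        = (t * ⁅t, g⁆ * t⁻¹) ^ X * ⁅t, ⁅t, g⁆⁆ ^ (X.choose 2) := by
      rw [conj_pow]
      have := n3_conj_center (pow_mem hz (X.choose 2)) t
      calc t * (⁅t, g⁆ ^ X * ⁅t, ⁅t, g⁆⁆ ^ (X.choose 2)) * t⁻¹
          = t * ⁅t, g⁆ ^ X * t⁻¹ * (t * ⁅t, ⁅t, g⁆⁆ ^ (X.choose 2) * t⁻¹) := by
            simp [mul_assoc]
        _ = _ := by rw [this]
    have hcomm : Commute ⁅t, ⁅t, g⁆⁆ ⁅t, g⁆ := (hzc _).symm
    have hch : (X + 1).choose 2 = X + X.choose 2 := by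
      rw [Nat.choose_succ_succ' X 1, Nat.choose_one_right]
    have hcomm2 : ∀ k : ℕ, ∀ y : G, y * ⁅t, ⁅t, g⁆⁆ ^ k = ⁅t, ⁅t, g⁆⁆ ^ k * y :=
      fun k => Subgroup.mem_center_iff.mp (pow_mem hz k)
    rw [e, ih, e2, e1, hcomm.mul_pow, hch]
    calc ⁅t, ⁅t, g⁆⁆ ^ X * ⁅t, g⁆ ^ X * ⁅t, ⁅t, g⁆⁆ ^ X.choose 2 * ⁅t, g⁆
        = ⁅t, g⁆ ^ X * (⁅t, ⁅t, g⁆⁆ ^ X * ⁅t, ⁅t, g⁆⁆ ^ X.choose 2 * ⁅t, g⁆) := by
          rw [← hcomm2 X]
          simp only [mul_assoc]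
      _ = ⁅t, g⁆ ^ X * (⁅t, g⁆ * ⁅t, ⁅t, g⁆⁆ ^ (X + X.choose 2)) := by
          rw [← pow_add, ← hcomm2 (X + X.choose 2)]
      _ = ⁅t, g⁆ ^ (X + 1) * ⁅t, ⁅t, g⁆⁆ ^ (X + X.choose 2) := by
          rw [pow_succ, mul_assoc]

/-- `⁅product of a list, n⁆` is the product of the `⁅g b, n⁆`. -/
theorem n3_comm_list (h3 : ∀ a b c d : G, ⁅⁅⁅a, b⁆, c⁆, d⁆ = 1) {α : Type} (g : α → G)
    (v : List α) {n : G} (hn : n ∈ commutator G) :
    ⁅(v.map g).prod, n⁆ = (v.map fun b => ⁅g b, n⁆).prod := by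
  induction v with
  | nil => simp
  | cons a v ih =>
    rw [List.map_cons, List.prod_cons, n3_comm_mul_left h3 _ _ hn, ih, List.map_cons,
      List.prod_cons]

/-- The key one-step identity: moving `g` to the left of `t ^ X` and the correction to the left of
`H`. -/
theorem n3_step (h3 : ∀ a b c d : G, ⁅⁅⁅a, b⁆, c⁆, d⁆ = 1) (H t g : G) (X : ℕ) :
    H * t ^ X * g =
      (⁅t, g⁆ ^ X * ⁅t, ⁅t, g⁆⁆ ^ (X.choose 2) * ⁅H, ⁅t, g⁆⁆ ^ X) * (H * g) * t ^ X := by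
  have hc : ⁅t, g⁆ ∈ commutator G := Subgroup.commutator_mem_commutator trivial trivial
  have hz : ⁅t, ⁅t, g⁆⁆ ∈ Subgroup.center G := n3_comm_center' h3 hc t
  have hzG : ⁅t, ⁅t, g⁆⁆ ∈ commutator G := Subgroup.commutator_mem_commutator trivial trivial
  have hH : ⁅H, ⁅t, g⁆⁆ ∈ Subgroup.center G := n3_comm_center' h3 hc H
  have e1 : t ^ X * g = ⁅t ^ X, g⁆ * g * t ^ X := by
    simp [commutatorElement_def, mul_assoc]
  have e2 : ∀ w : G, H * w = ⁅H, w⁆ * w * H := by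
    intro w
    simp [commutatorElement_def, mul_assoc]
  have e3 : ⁅H, ⁅t, g⁆ ^ X * ⁅t, ⁅t, g⁆⁆ ^ (X.choose 2)⁆ = ⁅H, ⁅t, g⁆⁆ ^ X := by
    rw [n3_comm_mul_right h3 H (pow_mem hc X) (pow_mem hzG _), n3_comm_pow_right h3 H hc,
      n3_comm_of_center H (pow_mem hz _), mul_one]
  have hcomm : ∀ y : G, y * ⁅H, ⁅t, g⁆⁆ ^ X = ⁅H, ⁅t, g⁆⁆ ^ X * y :=
    Subgroup.mem_center_iff.mp (pow_mem hH X)
  calc H * t ^ X * g = H * (t ^ X * g) := mul_assoc _ _ _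
    _ = H * (⁅t, g⁆ ^ X * ⁅t, ⁅t, g⁆⁆ ^ (X.choose 2)) * g * t ^ X := by
        rw [e1, n3_comm_pow_left h3]
        simp only [mul_assoc]
    _ = ⁅H, ⁅t, g⁆⁆ ^ X * (⁅t, g⁆ ^ X * ⁅t, ⁅t, g⁆⁆ ^ (X.choose 2)) * H * g * t ^ X := by
        rw [e2, e3]
    _ = _ := by
        rw [← hcomm]
        simp only [mul_assoc]

end Vale.Agent.P329
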