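import Vale.Agent.P329.PhaseB

/-!
# One-pivot sums along a word (tools for nilpotent groups of class three)

`ps S l f X w` is the sum, over the positions of `w` carrying the letter `l`, of `f` applied to
`X` plus the number of letters of `S` read before that position.
`e3 a b l X Y w` is the sum, over the positions of `w` carrying the letter `l`, of the product
(`X` + number of `a` before) * (`Y` + number of `b` before).
-/

namespace Vale.Agent.P329

variable {α : Type} [DecidableEq α]

/-- One-pivot sum of a function of one forward walk. -/
def ps (S : α → Bool) (l : α) (f : ℕ → ℕ) : ℕ → List α → ℕ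
  | _, [] => 0
  | X, c :: w => (if c = l then f X else 0) + ps S l f (if S c then X + 1 else X) w

/-- One-pivot sum of the product of two letter counts. -/
def e3 (a b l : α) : ℕ → ℕ → List α → ℕ
  | _, _, [] => 0
  | X, Y, c :: w => (if c = l then X * Y else 0) +
      e3 a b l (if c = a then X + 1 else X) (if c = b then Y + 1 else Y) w

/-- Sum over the `l`-positions of the number of `a` before. -/
def E1 (a l : α) (w : List α) : ℕ := ps (fun c => decide (c = a)) l (fun X => X) 0 w

/-- Sum over the `l`-positions of the binomial coefficient (number of `a` before) choose 2. -/
def E2 (a l : α) (w : List α) : ℕ := ps (fun c => decide (c = a)) l (fun X => X.choose 2) 0 w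

/-- Sum over the `l`-positions of (number of `a` before) * (number of `b` before). -/
def E3 (a b l : α) (w : List α) : ℕ := e3 a b l 0 0 w

theorem ps_append (S : α → Bool) (l : α) (f : ℕ → ℕ) (X : ℕ) (w : List α) (c : α) :
    ps S l f X (w ++ [c]) = ps S l f X w + (if c = l then f (X + w.countP S) else 0) := by
  induction w generalizing X with
  | nil => simp [ps]
  | cons d w ih =>
    simp only [List.cons_append, ps, ih, List.countP_cons]
    rw [add_assoc]
    congr 2
    have e1 : (if S d = true then X + 1 else X) + w.countP S =
        X + (w.countP S + if S d = true then 1 else 0) := by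
      by_cases hd : S d = true
      · simp [hd]; omega
      · simp [hd]
    rw [e1]

theorem e3_append (a b l : α) (X Y : ℕ) (w : List α) (c : α) :
    e3 a b l X Y (w ++ [c]) =
      e3 a b l X Y w + (if c = l then (X + w.count a) * (Y + w.count b) else 0) := by
  induction w generalizing X Y with
  | nil => simp [e3]
  | cons d w ih =>
    simp only [List.cons_append, e3, ih, List.count_cons]
    rw [add_assoc]
    congr 2
    have e1 : (if d = a then X + 1 else X) + w.count a =
        X + (w.count a + if (d == a) = true then 1 else 0) := by
      by_cases h1 : d = a
      · simp [h1]; omega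
      · simp [h1]
    have e2 : (if d = b then Y + 1 else Y) + w.count b =
        Y + (w.count b + if (d == b) = true then 1 else 0) := by
      by_cases h2 : d = b
      · simp [h2]; omega
      · simp [h2]
    rw [e1, e2]

end Vale.Agent.P329
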