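import Vale.Agent.P329.N3.Walk

/-!
# The quadratic one-pivot sums `E1`, `E2`, `E3` are measurable modulo every `e`

* `E1 a l`, `E2 a l` (`a ≠ l`): `meas_ps` with the walk counting `a` (moduli `e`, resp. `2 * e`).
* `E3 a b l` with `b ≠ l`: polarization
  `2 * E3 a b l w + (sum of X^2 for a) + (sum of Y^2 for b) = sum of (X+Y)^2 for the walk {a,b}`,
  everything modulo `2 * e`, then halve (as at the end of `meas_occ` in `Arith.lean`).
* `E3 a l l`: change of pivot, `E3 a l l w + E2 l a w = w.count a * (w.count l).choose 2`.
-/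

namespace Vale.Agent.P329

open Language

variable {α : Type} [DecidableEq α]

theorem succ_choose_two (n : ℕ) : (n + 1).choose 2 = n + n.choose 2 := by
  rw [Nat.choose_succ_succ' n 1, Nat.choose_one_right]

theorem add_choose_two (X d : ℕ) : (X + d).choose 2 = X.choose 2 + X * d + d.choose 2 := by
  induction d with
  | zero => simp
  | succ d ih =>
    rw [← add_assoc, succ_choose_two, succ_choose_two, ih]
    ring

theorem two_mul_choose_two (m : ℕ) : (2 * m).choose 2 + m = 2 * m ^ 2 := by
  induction m with
  | zero => simp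
  | succ m ih =>
    have h1 : 2 * (m + 1) = (2 * m + 1) + 1 := by ring
    rw [h1, succ_choose_two, succ_choose_two]
    nlinarith [ih]

theorem dvd_choose_two (e k : ℕ) : e ∣ (2 * e * k).choose 2 := by
  have h := two_mul_choose_two (e * k)
  have h1 : e ∣ (2 * (e * k)).choose 2 + e * k := by
    rw [h]
    exact ⟨2 * e * k ^ 2, by ring⟩
  have h2 : e ∣ e * k := Dvd.intro k rfl
  have h3 := (Nat.dvd_add_left h2).1 h1
  rwa [← mul_assoc] at h3

theorem choose_two_modEq_aux (e X Y : ℕ) (hXY : X ≤ Y) (h : X ≡ Y [MOD 2 * e]) :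
    X.choose 2 ≡ Y.choose 2 [MOD e] := by
  obtain ⟨k, hk⟩ := (Nat.modEq_iff_dvd' hXY).1 h
  have hY : Y = X + 2 * e * k := by omega
  rw [hY, add_choose_two]
  have h1 : e ∣ X * (2 * e * k) + (2 * e * k).choose 2 :=
    Dvd.dvd.add ⟨X * 2 * k, by ring⟩ (dvd_choose_two e k)
  obtain ⟨t, ht⟩ := h1
  rw [add_assoc, ht]
  exact (Nat.modEq_iff_dvd' (by omega)).2 ⟨t, by omega⟩

theorem choose_two_modEq (e X Y : ℕ) (h : X ≡ Y [MOD 2 * e]) :
    X.choose 2 ≡ Y.choose 2 [MOD e] := by
  rcases le_total X Y with hXY | hXY
  · exact choose_two_modEq_aux e X Y hXY h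
  · exact (choose_two_modEq_aux e Y X hXY h.symm).symm

theorem polar (a b l : α) (hab : a ≠ b) (X Y : ℕ) (w : List α) :
    2 * e3 a b l X Y w + ps (fun c => decide (c = a)) l (fun Z => Z ^ 2) X w
      + ps (fun c => decide (c = b)) l (fun Z => Z ^ 2) Y w
      = ps (fun c => decide (c = a) || decide (c = b)) l (fun Z => Z ^ 2) (X + Y) w := by
  induction w generalizing X Y with
  | nil => simp [ps, e3]
  | cons c w ih =>
    simp only [ps, e3]
    have hstep : (if (decide (c = a) || decide (c = b)) = true then X + Y + 1 else X + Y)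
        = (if c = a then X + 1 else X) + (if c = b then Y + 1 else Y) := by
      by_cases h1 : c = a
      · have h2 : c ≠ b := fun h => hab (h1.symm.trans h)
        simp [h1, hab]; omega
      · by_cases h2 : c = b
        · simp [h2, Ne.symm hab]; omega
        · simp [h1, h2]
    rw [hstep, ← ih]
    have e1 : (if decide (c = a) = true then X + 1 else X) = (if c = a then X + 1 else X) := by
      simp
    have e2 : (if decide (c = b) = true then Y + 1 else Y) = (if c = b then Y + 1 else Y) := by
      simp
    rw [e1, e2]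
    by_cases hl : c = l
    · simp only [hl, if_true]
      ring
    · simp only [hl, if_false]
      ring

theorem countP_decide_eq (l : α) (w : List α) :
    w.countP (fun c => decide (c = l)) = w.count l := by
  induction w with
  | nil => simp
  | cons d w ih =>
    by_cases h : d = l
    · simp [h, ih]
    · simp [h, ih]

theorem repivot (a l : α) (hal : a ≠ l) (w : List α) :
    E3 a l l w + E2 l a w = w.count a * (w.count l).choose 2 := by
  induction w using List.reverseRecOn with
  | nil => simp [E3, E2, e3, ps]
  | append_singleton w c ih =>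
    unfold E3 E2 at ih ⊢
    rw [e3_append, ps_append, countP_decide_eq, List.count_append, List.count_append]
    by_cases h1 : c = l
    · have h2 : c ≠ a := fun h => hal (h.symm.trans h1)
      have h3 : l ≠ a := Ne.symm hal
      subst h1
      simp only [if_true, h2, if_false, List.count_singleton_self, zero_add, add_zero]
      rw [List.count_singleton, if_neg (by simpa using h3), add_zero, succ_choose_two]
      nlinarith [ih]
    · by_cases h2 : c = a
      · subst h2
        simp only [h1, if_false, if_true, List.count_singleton_self, zero_add, add_zero]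
        rw [List.count_singleton, if_neg (by simpa using h1), add_zero]
        nlinarith [ih]
      · simp only [h1, h2, if_false, add_zero]
        rw [List.count_singleton, List.count_singleton, if_neg (by simpa using h2),
          if_neg (by simpa using h1), add_zero, add_zero]
        exact ih

theorem meas_E1 [Finite α] (a l : α) (hal : a ≠ l) (e : ℕ) [NeZero e] :
    Meas 1 (fun w : List α => (E1 a l w : ZMod e)) :=
  meas_ps (fun c => decide (c = a)) l (by simpa using Ne.symm hal) (fun X => X) e e
    (fun _ _ h => h)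

theorem meas_E2 [Finite α] (a l : α) (hal : a ≠ l) (e : ℕ) [NeZero e] :
    Meas 1 (fun w : List α => (E2 a l w : ZMod e)) := by
  have : NeZero (2 * e) := ⟨Nat.mul_ne_zero two_ne_zero (NeZero.ne e)⟩
  exact meas_ps (fun c => decide (c = a)) l (by simpa using Ne.symm hal) (fun X => X.choose 2)
    (2 * e) e (fun X Y h => choose_two_modEq e X Y h)

theorem meas_E3 [Finite α] (a b l : α) (hab : a ≠ b) (hal : a ≠ l) (e : ℕ) [NeZero e] :
    Meas 1 (fun w : List α => (E3 a b l w : ZMod e)) := by
  have hne : NeZero (2 * e) := ⟨Nat.mul_ne_zero two_ne_zero (NeZero.ne e)⟩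
  by_cases hbl : b = l
  · subst hbl
    have hE2 := meas_E2 b a (Ne.symm hal) e
    have hA := meas_count (α := α) a e
    have hL := meas_count (α := α) b (2 * e)
    have hall := ((hE2.prodMk hA).prodMk hL).comp
      (fun y : (ZMod e × ZMod e) × ZMod (2 * e) =>
        y.1.2 * (((y.2.val).choose 2 : ℕ) : ZMod e) - y.1.1)
    refine hall.congr ?_
    intro w
    have hid := repivot a b hal w
    have h1 : ((((w.count b : ZMod (2 * e)).val).choose 2 : ℕ) : ZMod e)
        = (((w.count b).choose 2 : ℕ) : ZMod e) := by
      rw [ZMod.natCast_eq_natCast_iff]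
      apply choose_two_modEq
      rw [ZMod.val_natCast]
      exact Nat.mod_modEq _ _
    simp only [h1]
    have := congrArg (fun n : ℕ => (n : ZMod e)) hid
    simp only [Nat.cast_add, Nat.cast_mul] at this
    rw [← this]; ring
  · have hsq : ∀ X Y : ℕ, X ≡ Y [MOD 2 * e] → X ^ 2 ≡ Y ^ 2 [MOD 2 * e] :=
      fun X Y h => h.pow 2
    have hPa := meas_ps (fun c => decide (c = a)) l (by simpa using Ne.symm hal)
      (fun Z => Z ^ 2) (2 * e) (2 * e) hsq
    have hPb := meas_ps (fun c => decide (c = b)) l (by simpa using Ne.symm hbl)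
      (fun Z => Z ^ 2) (2 * e) (2 * e) hsq
    have hPab := meas_ps (fun c => decide (c = a) || decide (c = b)) l
      (by simp [Ne.symm hal, Ne.symm hbl]) (fun Z => Z ^ 2) (2 * e) (2 * e) hsq
    have hall := ((hPa.prodMk hPb).prodMk hPab).comp
      (fun y : (ZMod (2 * e) × ZMod (2 * e)) × ZMod (2 * e) =>
        ((((y.2 - y.1.1 - y.1.2).val / 2 : ℕ) : ZMod e)))
    refine hall.congr ?_
    intro w
    have hid := polar a b l hab 0 0 w
    have hcast : ((ps (fun c => decide (c = a) || decide (c = b)) l (fun Z => Z ^ 2) 0 w :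
          ZMod (2 * e))
        - (ps (fun c => decide (c = a)) l (fun Z => Z ^ 2) 0 w : ZMod (2 * e))
        - (ps (fun c => decide (c = b)) l (fun Z => Z ^ 2) 0 w : ZMod (2 * e)))
        = ((2 * E3 a b l w : ℕ) : ZMod (2 * e)) := by
      have := congrArg (fun n : ℕ => (n : ZMod (2 * e))) hid
      simp only [Nat.cast_add, add_zero] at this
      rw [← this]
      unfold E3
      ring
    simp only [hcast, ZMod.val_natCast, Nat.mul_mod_mul_left]
    rw [Nat.mul_div_cancel_left _ (by norm_num : 0 < 2), ZMod.natCast_mod]

end Vale.Agent.P329
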