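import Vale.Agent.P329.N3.Comm
import Vale.Agent.P329.N3.Defs

/-!
# Eliminating one letter in a group of class at most three

For a letter `a` outside the finite set `B` of letters, the value of the subword of `w` on the
letters of `insert a B` equals an explicit element of the (commutative) commutator subgroup, times
the value of the subword on `B`, times `g a ^ (number of a in w)`.
PROOF: induction on `w` from the right (`List.reverseRecOn`), using `ps_append`, `e3_append`,
`n3_step` with `H` the value of the subword on `B`, `t = g a`, `X = w.count a`, and `n3_comm_list`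
to write `⁅H, ⁅g a, g l⁆⁆` as the product over `b ∈ B` of `⁅g b, ⁅g a, g l⁆⁆ ^ (w.count b)`.
-/

namespace Vale.Agent.P329

open scoped commutatorElement

variable {G : Type} [Group G] {K : Type} [CommGroup K] {α : Type} [DecidableEq α]

/-- The correction term of the elimination of the letter `a`. -/
def corr (a : α) (B : Finset α) (u v : α → K) (z : α → α → K) (w : List α) : K :=
  ∏ l ∈ B, (u l ^ E1 a l w * v l ^ E2 a l w * ∏ b ∈ B, z b l ^ E3 a b l w)

theorem countP_decide_eq (a : α) (w : List α) :
    w.countP (fun c => decide (c = a)) = w.count a := by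
  induction w with
  | nil => rfl
  | cons d w ih =>
    rw [List.countP_cons, List.count_cons, ih]
    by_cases h : d = a <;> simp [h]

theorem filter_map_prod (B : Finset α) (f : α → K) (w : List α) :
    ((w.filter (fun c => decide (c ∈ B))).map f).prod = ∏ b ∈ B, f b ^ w.count b := by
  induction w with
  | nil => simp
  | cons d w ih =>
    by_cases hd : d ∈ B
    · rw [List.filter_cons_of_pos (by simpa using hd), List.map_cons, List.prod_cons, ih]
      have h1 : ∀ b ∈ B, f b ^ (d :: w).count b = (if d = b then f b else 1) * f b ^ w.count b := by
        intro b _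
        rw [List.count_cons]
        by_cases h : d = b
        · subst h
          simp [pow_succ, mul_comm]
        · simp [h]
      rw [Finset.prod_congr rfl h1, Finset.prod_mul_distrib, Finset.prod_ite_eq, if_pos hd]
    · rw [List.filter_cons_of_neg (by simpa using hd), ih]
      apply Finset.prod_congr rfl
      intro b hb
      have h : d ≠ b := fun h => hd (h ▸ hb)
      rw [List.count_cons]
      simp [h]

theorem corr_append (a : α) (B : Finset α) (u v : α → K) (z : α → α → K) (w : List α) (c : α) :
    corr a B u v z (w ++ [c]) = corr a B u v z w *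
      (if c ∈ B then u c ^ w.count a * v c ^ (w.count a).choose 2 *
        ∏ b ∈ B, z b c ^ (w.count a * w.count b) else 1) := by
  unfold corr
  have h1 : ∀ l ∈ B, (u l ^ E1 a l (w ++ [c]) * v l ^ E2 a l (w ++ [c]) *
      ∏ b ∈ B, z b l ^ E3 a b l (w ++ [c])) =
      (u l ^ E1 a l w * v l ^ E2 a l w * ∏ b ∈ B, z b l ^ E3 a b l w) *
      (if c = l then u l ^ w.count a * v l ^ (w.count a).choose 2 *
        ∏ b ∈ B, z b l ^ (w.count a * w.count b) else 1) := by
    intro l _
    by_cases h : c = l
    · subst h
      simp only [E1, E2, E3, ps_append, e3_append, if_true, zero_add, countP_decide_eq, pow_add,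
        Finset.prod_mul_distrib]
      ac_rfl
    · simp only [E1, E2, E3, ps_append, e3_append, if_neg h, add_zero, mul_one]
  rw [Finset.prod_congr rfl h1, Finset.prod_mul_distrib, Finset.prod_ite_eq]

theorem elim_formula (h3 : ∀ a b c d : G, ⁅⁅⁅a, b⁆, c⁆, d⁆ = 1) (ι : K →* G) (g : α → G)
    (a : α) (B : Finset α) (ha : a ∉ B) (u v : α → K) (z : α → α → K)
    (hu : ∀ l, ι (u l) = ⁅g a, g l⁆) (hv : ∀ l, ι (v l) = ⁅g a, ⁅g a, g l⁆⁆)
    (hz : ∀ b l, ι (z b l) = ⁅g b, ⁅g a, g l⁆⁆) (w : List α) :
    ((w.filter (fun c => decide (c ∈ insert a B))).map g).prod =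
      ι (corr a B u v z w) * ((w.filter (fun c => decide (c ∈ B))).map g).prod
        * g a ^ w.count a := by
  induction w using List.reverseRecOn with
  | nil => simp [corr, E1, E2, E3, ps, e3]
  | append_singleton w c ih =>
    rw [corr_append, List.filter_append, List.filter_append, List.map_append, List.map_append,
      List.prod_append, List.prod_append, List.count_append, ih]
    obtain ⟨H, hH⟩ : ∃ H, H = ((w.filter (fun c => decide (c ∈ B))).map g).prod := ⟨_, rfl⟩
    rw [← hH]
    by_cases hca : c = a
    · subst hca
      have f1 : [c].filter (fun x => decide (x ∈ insert c B)) = [c] := by simp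
      have f2 : [c].filter (fun x => decide (x ∈ B)) = [] := by simp [ha]
      rw [f1, f2, if_neg ha]
      simp [pow_succ, mul_assoc]
    · by_cases hcB : c ∈ B
      · have f1 : [c].filter (fun x => decide (x ∈ insert a B)) = [c] := by simp [hcB]
        have f2 : [c].filter (fun x => decide (x ∈ B)) = [c] := by simp [hcB]
        have f3 : [c].count a = 0 := by simp [hca]
        rw [f1, f2, f3, if_pos hcB, add_zero]
        simp only [List.map_cons, List.map_nil, List.prod_cons, List.prod_nil, mul_one]
        have hn : ⁅g a, g c⁆ ∈ commutator G :=
          Subgroup.commutator_mem_commutator (Subgroup.mem_top _) (Subgroup.mem_top _)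
        have hHn : ι (∏ b ∈ B, z b c ^ (w.count a * w.count b)) =
            ⁅H, ⁅g a, g c⁆⁆ ^ w.count a := by
          have e1 : ∏ b ∈ B, z b c ^ (w.count a * w.count b) =
              (∏ b ∈ B, z b c ^ w.count b) ^ w.count a := by
            rw [← Finset.prod_pow]
            apply Finset.prod_congr rfl
            intro b _
            rw [← pow_mul, mul_comm]
          rw [e1, map_pow, ← filter_map_prod, map_list_prod, List.map_map, hH,
            n3_comm_list h3 g _ hn]
          congr 2
          apply List.map_congr_left
          intro b _
          exact hz b c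
        rw [map_mul, map_mul, map_mul, map_pow, map_pow, hu, hv, hHn]
        have key := n3_step h3 H (g a) (g c) (w.count a)
        calc ι (corr a B u v z w) * H * g a ^ w.count a * g c
            = ι (corr a B u v z w) * (H * g a ^ w.count a * g c) := by simp only [mul_assoc]
          _ = _ := by rw [key]; simp only [mul_assoc]
      · have f1 : [c].filter (fun x => decide (x ∈ insert a B)) = [] := by simp [hca, hcB]
        have f2 : [c].filter (fun x => decide (x ∈ B)) = [] := by simp [hcB]
        have f3 : [c].count a = 0 := by simp [hca]
        rw [f1, f2, f3, if_neg hcB]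
        simp

end Vale.Agent.P329
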