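import Vale.Agent.P329.N3.Formula
import Vale.Agent.P329.N3.Feat

/-!
# Languages recognized by finite nilpotent groups of class at most three
-/

namespace Vale.Agent.P329

open Language
open scoped commutatorElement

theorem pow_eq_of_cast_eq {K : Type} [Group K] [Finite K] (k : K) {n n' : ℕ}
    (h : (n : ZMod (Nat.card K)) = (n' : ZMod (Nat.card K))) : k ^ n = k ^ n' := by
  rw [ZMod.natCast_eq_natCast_iff'] at h
  rw [← pow_mod_natCard, h, pow_mod_natCard]

/-- The value of the subword on the letters of `B` is measurable (induction on `B`). -/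
theorem meas_sub {G : Type} [Group G] [Finite G] (h3 : ∀ a b c d : G, ⁅⁅⁅a, b⁆, c⁆, d⁆ = 1)
    {α : Type} [Finite α] [DecidableEq α] (g : α → G) (B : Finset α) :
    Meas 1 (fun w : List α => ((w.filter (fun c => decide (c ∈ B))).map g).prod) := by
  induction B using Finset.induction_on with
  | empty =>
    refine (meas_const 1 (1 : G)).congr ?_
    intro w
    simp
  | insert a B ha ih =>
    let _ : CommGroup (commutator G) :=
      { (inferInstance : Group (commutator G)) with
        mul_comm := fun x y => Subtype.ext (n3_commutator_comm h3 x.2 y.2) }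
    have hmem : ∀ x y : G, ⁅x, y⁆ ∈ commutator G := fun x y =>
      Subgroup.commutator_mem_commutator (Subgroup.mem_top x) (Subgroup.mem_top y)
    let u : α → commutator G := fun l => ⟨⁅g a, g l⁆, hmem _ _⟩
    let v : α → commutator G := fun l => ⟨⁅g a, ⁅g a, g l⁆⁆, hmem _ _⟩
    let z : α → α → commutator G := fun b l => ⟨⁅g b, ⁅g a, g l⁆⁆, hmem _ _⟩
    have hform := elim_formula h3 (commutator G).subtype g a B ha u v z
      (fun _ => rfl) (fun _ => rfl) (fun _ _ => rfl)
    set e : ℕ := Nat.card (commutator G) with he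
    have : NeZero e := ⟨Nat.card_pos.ne'⟩
    set N : ℕ := Nat.card G with hN
    have : NeZero N := ⟨Nat.card_pos.ne'⟩
    have hne : ∀ l : B, a ≠ l := fun l h => ha (h ▸ l.2)
    have h1 : Meas 1 (fun (w : List α) (l : B) => (E1 a l w : ZMod e)) :=
      Meas.pi (fun l => meas_E1 a l (hne l) e)
    have h2 : Meas 1 (fun (w : List α) (l : B) => (E2 a l w : ZMod e)) :=
      Meas.pi (fun l => meas_E2 a l (hne l) e)
    have h3' : Meas 1 (fun (w : List α) (i : B × B) => (E3 a i.1 i.2 w : ZMod e)) :=
      Meas.pi (fun i => meas_E3 a i.1 i.2 (hne i.1) (hne i.2) e)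
    have h4 : Meas 1 (fun w : List α => (w.count a : ZMod N)) := meas_count a N
    have hall := ((h1.prodMk h2).prodMk (h3'.prodMk (ih.prodMk h4)))
    intro y
    refine hall.of_factor _ ?_
    intro w w' hww
    simp only [Prod.mk.injEq] at hww
    obtain ⟨⟨e1, e2⟩, e3', e4, e5⟩ := hww
    have hcorr : corr a B u v z w = corr a B u v z w' := by
      unfold corr
      refine Finset.prod_congr rfl ?_
      intro l hl
      have a1 : u l ^ E1 a l w = u l ^ E1 a l w' :=
        pow_eq_of_cast_eq (u l) (congrFun e1 ⟨l, hl⟩)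
      have a2 : v l ^ E2 a l w = v l ^ E2 a l w' :=
        pow_eq_of_cast_eq (v l) (congrFun e2 ⟨l, hl⟩)
      have a3 : ∏ b ∈ B, z b l ^ E3 a b l w = ∏ b ∈ B, z b l ^ E3 a b l w' := by
        refine Finset.prod_congr rfl ?_
        intro b hb
        exact pow_eq_of_cast_eq (z b l) (congrFun e3' (⟨b, hb⟩, ⟨l, hl⟩))
      rw [a1, a2, a3]
    have hpow : g a ^ w.count a = g a ^ w'.count a := pow_eq_of_cast_eq (g a) e5
    have hval : ((w.filter (fun c => decide (c ∈ insert a B))).map g).prod =
        ((w'.filter (fun c => decide (c ∈ insert a B))).map g).prod := by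
      rw [hform w, hform w', hcorr, e4, hpow]
    simp only [mem_langOf, hval]

theorem gshLE_of_class_three {G : Type} [Group G] [Finite G]
    (h3 : ∀ a b c d : G, ⁅⁅⁅a, b⁆, c⁆, d⁆ = 1)
    {α : Type} [Finite α] (φ : α → G) (T : Set G) :
    GshLE 1 (langOf fun w : List α => (w.map φ).prod ∈ T) := by
  classical
  have := Fintype.ofFinite α
  have h := (meas_sub h3 φ Finset.univ).preimage T
  refine h.congr ?_
  intro w
  simp [mem_langOf]

end Vale.Agent.P329
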