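import Vale.Agent.P329.N3.Defs

/-!
# Counting a neutral letter along a forward walk modulo `m` (any modulus)

The walk moves by `+1` on the letters of `S` and stays put on the other letters.  The automaton on
`ZMod m` with the arrivals at a level `g` removed (except loops of exempt neutral letters) is
counter-free: a word containing a letter of `S` must eventually arrive at `g`.
PROOF SKETCH for `counterfree_walk`: show by induction on a word `v` that if
`cnt (dWalk m S) (wtWalk m S g ex) s v = 0` then `v.countP S ≤ (g - s - 1).val` (each letter of `S`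
read at `g - 1` has weight one since letters of `S` are never exempt), and that
`run (dWalk m S) s v = s + v.countP S`.  So a closed run of weight zero has
`v.countP S < m` and the cast of `v.countP S` to `ZMod m` is zero, hence no letter of `S`, hence `u` has none and
fixes every state.
`meas_occW`: as `meas_occ_zero` in `PhaseB.lean` (difference of two renewal counts, exempting all
neutral letters, resp. all neutral letters except `l`).
`meas_ps`: `ps S l f 0 w = ∑ g : ZMod m, f-value at g * occW ... g` modulo `M`.
-/

namespace Vale.Agent.P329

open Language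

variable {α : Type} [DecidableEq α]

set_option linter.unusedSectionVars false

/-- The forward walk automaton on `ZMod m`. -/
def dWalk (m : ℕ) (S : α → Bool) (s : ZMod m) (c : α) : ZMod m := if S c then s + 1 else s

/-- Weight: the transitions whose target is `g`, except those of the exempt letters. -/
def wtWalk (m : ℕ) (S : α → Bool) (g : ZMod m) (ex : α → Bool) (s : ZMod m) (c : α) : Bool :=
  decide (dWalk m S s c = g) && !(ex c)

/-- Number of occurrences of the letter `l` read at walk level `g` (start level is the argument). -/
def occW (m : ℕ) (S : α → Bool) (l : α) (g : ZMod m) : ZMod m → List α → ℕ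
  | _, [] => 0
  | q, c :: w => (if c = l ∧ q = g then 1 else 0) + occW m S l g (dWalk m S q c) w

theorem run_walk (m : ℕ) (S : α → Bool) (s : ZMod m) (v : List α) :
    run (dWalk m S) s v = s + (v.countP S : ZMod m) := by
  induction v generalizing s with
  | nil => simp
  | cons c v ih =>
    rw [run_cons, ih, List.countP_cons]
    by_cases hc : S c = true
    · simp [dWalk, hc]; ring
    · simp [dWalk, hc]

theorem val_sub_one_add_one (m : ℕ) [NeZero m] (t : ZMod m) (ht : t ≠ 0) :
    (t - 1).val + 1 = t.val := by
  have hm1 : 1 < m := by
    rcases Nat.lt_or_ge 1 m with h | h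
    · exact h
    · exfalso
      have hm : m = 1 := le_antisymm h (Nat.pos_of_ne_zero (NeZero.ne m))
      subst hm
      exact ht (Subsingleton.elim _ _)
  have h1 : (1 : ZMod m).val = 1 := by
    rw [ZMod.val_one_eq_one_mod, Nat.mod_eq_of_lt hm1]
  have hpos : 1 ≤ t.val := by
    rcases Nat.eq_zero_or_pos t.val with h | h
    · exact absurd ((ZMod.val_eq_zero t).1 h) ht
    · exact h
  rw [ZMod.val_sub (by rw [h1]; exact hpos), h1]
  omega

theorem countP_le_of_cnt_zero (m : ℕ) [NeZero m] (S : α → Bool) (g : ZMod m) (ex : α → Bool)
    (hex : ∀ c, ex c = true → S c = false) (v : List α) (s : ZMod m)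
    (h : cnt (dWalk m S) (wtWalk m S g ex) s v = 0) : v.countP S ≤ (g - s - 1).val := by
  induction v generalizing s with
  | nil => simp
  | cons c v ih =>
    simp only [cnt] at h
    have h2 : cnt (dWalk m S) (wtWalk m S g ex) (dWalk m S s c) v = 0 := by omega
    have h1 : wtWalk m S g ex s c = false := by
      by_contra hh
      have : wtWalk m S g ex s c = true := by simpa using hh
      rw [this] at h
      simp at h
    have ih' := ih _ h2
    rw [List.countP_cons]
    by_cases hc : S c = true
    · have hexc : ex c = false := by
        by_contra hh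
        have : ex c = true := by simpa using hh
        rw [hex c this] at hc
        exact absurd hc (by simp)
      have hd : dWalk m S s c = s + 1 := by simp [dWalk, hc]
      rw [hd] at ih'
      have hne : s + 1 ≠ g := by
        intro hh
        simp [wtWalk, hd, hh, hexc] at h1
      have ht : g - s - 1 ≠ 0 := by
        intro hh
        apply hne
        have : g = s + 1 := by
          have h3 : g - s - 1 + (s + 1) = 0 + (s + 1) := by rw [hh]
          ring_nf at h3
          rw [h3]; ring
        exact this.symm
      have e := val_sub_one_add_one m (g - s - 1) ht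
      have e2 : g - (s + 1) - 1 = g - s - 1 - 1 := by ring
      rw [e2] at ih'
      simp only [hc, if_true]
      omega
    · have hd : dWalk m S s c = s := by simp [dWalk, hc]
      rw [hd] at ih'
      simpa [hc] using ih'

theorem countP_flatten_replicate (S : α → Bool) (u : List α) (n : ℕ) :
    (List.replicate n u).flatten.countP S = n * u.countP S := by
  induction n with
  | zero => simp
  | succ n ih =>
    rw [List.replicate_succ, List.flatten_cons, List.countP_append, ih]
    ring

theorem counterfree_walk (m : ℕ) [NeZero m] (S : α → Bool) (g : ZMod m) (ex : α → Bool)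
    (hex : ∀ c, ex c = true → S c = false)
    (u : List α) (s : ZMod m) (n : ℕ) (hn : 0 < n)
    (hrun : run (dWalk m S) s (List.replicate n u).flatten = s)
    (hcnt : cnt (dWalk m S) (wtWalk m S g ex) s (List.replicate n u).flatten = 0) :
    run (dWalk m S) s u = s := by
  have h1 := countP_le_of_cnt_zero m S g ex hex _ s hcnt
  have h2 : (g - s - 1).val < m := ZMod.val_lt _
  rw [run_walk] at hrun
  have h3 : (((List.replicate n u).flatten.countP S : ℕ) : ZMod m) = 0 := by
    have : s + (((List.replicate n u).flatten.countP S : ℕ) : ZMod m) = s + 0 := by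
      rw [hrun, add_zero]
    exact add_left_cancel this
  rw [ZMod.natCast_eq_zero_iff] at h3
  have h4 : (List.replicate n u).flatten.countP S = 0 :=
    Nat.eq_zero_of_dvd_of_lt h3 (lt_of_le_of_lt h1 h2)
  rw [countP_flatten_replicate] at h4
  have h5 : u.countP S = 0 := by
    rcases Nat.mul_eq_zero.1 h4 with h | h
    · omega
    · exact h
  rw [run_walk, h5]
  simp

theorem cnt_occW (m : ℕ) (S : α → Bool) (l : α) (hl : S l = false) (g : ZMod m)
    (w : List α) (q : ZMod m) :
    cnt (dWalk m S) (wtWalk m S g (fun c => !(S c) && decide (c ≠ l))) q w =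
      cnt (dWalk m S) (wtWalk m S g (fun c => !(S c))) q w + occW m S l g q w := by
  induction w generalizing q with
  | nil => simp [cnt, occW]
  | cons c w ih =>
    have hhead : (if wtWalk m S g (fun c => !(S c) && decide (c ≠ l)) q c then 1 else 0) =
        (if wtWalk m S g (fun c => !(S c)) q c then 1 else 0)
        + (if c = l ∧ q = g then 1 else 0) := by
      by_cases hc : c = l
      · subst hc
        by_cases hq : q = g
        · simp [wtWalk, dWalk, hl, hq]
        · simp [wtWalk, dWalk, hl, hq]
      · simp [wtWalk, hc]
    simp only [cnt, occW]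
    rw [hhead, ih]
    ring

theorem meas_occW [Finite α] (m : ℕ) [NeZero m] (S : α → Bool) (l : α) (hl : S l = false)
    (g : ZMod m) (M : ℕ) [NeZero M] :
    Meas 1 (fun w : List α => (occW m S l g 0 w : ZMod M)) := by
  have hland : ∀ (ex : α → Bool) (s : ZMod m) (a : α),
      wtWalk m S g ex s a = true → dWalk m S s a = g := by
    intro ex s a h
    simp only [wtWalk, Bool.and_eq_true, decide_eq_true_eq] at h
    exact h.1
  have h1 := renewal (dWalk m S) (wtWalk m S g (fun c => !(S c))) g (hland _)
    (counterfree_walk m S g _ (by intro c h; simpa using h)) M 0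
  have h2 := renewal (dWalk m S) (wtWalk m S g (fun c => !(S c) && decide (c ≠ l))) g (hland _)
    (counterfree_walk m S g _ (by
      intro c h
      simp only [Bool.and_eq_true, Bool.not_eq_true'] at h
      exact h.1)) M 0
  have h3 := (h2.prodMk h1).comp (fun t => t.1.2 - t.2.2)
  refine h3.congr ?_
  intro w
  have := cnt_occW m S l hl g w 0
  simp only
  rw [this]
  push_cast
  ring

theorem ps_eq_sum (S : α → Bool) (l : α) (f : ℕ → ℕ) (m M : ℕ)
    [NeZero m] (hf : ∀ X Y : ℕ, X ≡ Y [MOD m] → f X ≡ f Y [MOD M]) (w : List α) (X : ℕ) :
    (ps S l f X w : ZMod M) =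
      ∑ g : ZMod m, (f g.val : ZMod M) * (occW m S l g (X : ZMod m) w : ZMod M) := by
  induction w generalizing X with
  | nil => simp [ps, occW]
  | cons c w ih =>
    simp only [ps, occW]
    have hd : dWalk m S (X : ZMod m) c = (((if S c then X + 1 else X : ℕ)) : ZMod m) := by
      by_cases hc : S c = true
      · simp [dWalk, hc]
      · simp [dWalk, hc]
    rw [hd, Nat.cast_add, ih]
    simp only [Nat.cast_add, mul_add, Finset.sum_add_distrib]
    congr 1
    by_cases hc : c = l
    · have hX : (f (X % m) : ZMod M) = (f X : ZMod M) := by
        rw [ZMod.natCast_eq_natCast_iff]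
        exact hf _ _ (Nat.mod_modEq X m)
      simp [hc, hX]
    · simp [hc]

/-- One-pivot sums of a periodic function of a forward walk are measurable, for a neutral pivot. -/
theorem meas_ps [Finite α] (S : α → Bool) (l : α) (hl : S l = false) (f : ℕ → ℕ) (m M : ℕ)
    [NeZero m] [NeZero M] (hf : ∀ X Y : ℕ, X ≡ Y [MOD m] → f X ≡ f Y [MOD M]) :
    Meas 1 (fun w : List α => (ps S l f 0 w : ZMod M)) := by
  have h1 : Meas 1 (fun (w : List α) (g : ZMod m) => (occW m S l g 0 w : ZMod M)) :=
    Meas.pi (fun g => meas_occW m S l hl g M)
  have h2 := h1.comp (fun t : ZMod m → ZMod M => ∑ g : ZMod m, (f g.val : ZMod M) * t g)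
  refine h2.congr ?_
  intro w
  have := ps_eq_sum S l f m M hf w 0
  simpa using this

end Vale.Agent.P329
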